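import Vale.Agent.P328.B.FULL
import Vale.Agent.P328.B.GLUN
import Vale.Agent.P328.Bin.NW
import Vale.Agent.P328.U.GEN

/-!
P328: an almost uniform sampler for contingency tables with arbitrary margins, polynomial in the
input length (margins in binary) and in `log (1 / ε)`.
-/

namespace Vale.Agent.Results.P328.BinarySampler

open Finset

variable {m n : ℕ}

/-- the tables with margins `r`, `c` -/
def Omega (r : Fin m → ℕ) (c : Fin n → ℕ) : Finset (Fin m → Fin n → ℕ) :=
  (Fintype.piFinset fun i => Fintype.piFinset fun _ => range (r i + 1)).filter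
    fun X => (∀ i, ∑ j, X i j = r i) ∧ ∀ j, ∑ i, X i j = c j

/-- the input length -/
noncomputable def len (r : Fin m → ℕ) (c : Fin n → ℕ) : ℝ :=
  m + n + ∑ i, Real.logb 2 (r i + 2) + ∑ j, Real.logb 2 (c j + 2)

/-- prefix sums `a 0 + ... + a (i - 1)` -/
def pre (a : Fin m → ℕ) (i : ℕ) : ℕ := ∑ k : Fin m, if (k : ℕ) < i then a k else 0

/-- the starting table (north-west corner rule): entry `(i, j)` is the length of the intersection of
the intervals `[pre r i, pre r (i+1))` and `[pre c j, pre c (j+1))` -/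
def start (r : Fin m → ℕ) (c : Fin n → ℕ) : Fin m → Fin n → ℕ :=
  fun i j => min (pre r ((i : ℕ) + 1)) (pre c ((j : ℕ) + 1)) - max (pre r i) (pre c j)

/-- the table with a single one, at `(k, j)` -/
def one (k : Fin m) (j : Fin n) : Fin m → Fin n → ℕ := Pi.single k (Pi.single j 1)

/-- one step of the dyadic switch chain with special row `h`: the choice `(k, a, b, d, coin)` moves
`2 ^ d` units of row `k` from column `a` to column `b` and `2 ^ d` units of row `h` from column `b`
to column `a`, if `coin` is true, `k ≠ h`, `a ≠ b`, `X k a ≥ 2 ^ d` and `X h b ≥ 2 ^ d`; otherwise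
nothing is moved -/
def step {D : ℕ} (h : Fin m) (X : Fin m → Fin n → ℕ)
    (q : Fin m × Fin n × Fin n × Fin (D + 1) × Bool) : Fin m → Fin n → ℕ :=
  if q.2.2.2.2 = true ∧ q.1 ≠ h ∧ q.2.1 ≠ q.2.2.1 ∧
      2 ^ (q.2.2.2.1 : ℕ) ≤ X q.1 q.2.1 ∧ 2 ^ (q.2.2.2.1 : ℕ) ≤ X h q.2.2.1 then
    X + 2 ^ (q.2.2.2.1 : ℕ) • one q.1 q.2.2.1 + 2 ^ (q.2.2.2.1 : ℕ) • one h q.2.1
      - 2 ^ (q.2.2.2.1 : ℕ) • one q.1 q.2.1 - 2 ^ (q.2.2.2.1 : ℕ) • one h q.2.2.1
  else X

/-- `t` steps, driven by the choices `ω` -/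
def run {D : ℕ} (h : Fin m) (X : Fin m → Fin n → ℕ) {t : ℕ}
    (ω : Fin t → Fin m × Fin n × Fin n × Fin (D + 1) × Bool) : Fin m → Fin n → ℕ :=
  (List.ofFn ω).foldl (step h) X

/-- one attempt: add one unit at `(h, J)`, run the chain, remove one unit at `(h, J)` if there is
one, otherwise fail -/
def attempt {D : ℕ} (h : Fin m) (J : Fin n) (X₀ : Fin m → Fin n → ℕ) {t : ℕ}
    (ω : Fin t → Fin m × Fin n × Fin n × Fin (D + 1) × Bool) : Option (Fin m → Fin n → ℕ) :=
  if 1 ≤ run h (X₀ + one h J) ω h J then some (run h (X₀ + one h J) ω - one h J) else none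

/-- the sampler: the result of the first successful attempt out of `K`, and `X₀` if all fail -/
def sampler {D : ℕ} (h : Fin m) (J : Fin n) (X₀ : Fin m → Fin n → ℕ) {K t : ℕ}
    (ω : Fin K → Fin t → Fin m × Fin n × Fin n × Fin (D + 1) × Bool) : Fin m → Fin n → ℕ :=
  (((List.ofFn ω).map (attempt h J X₀)).reduceOption.head?).getD X₀

/-- total variation distance between the law of `out ω`, `ω` uniform on `S`, and the uniform law
on the tables with margins `r`, `c` (for `out` with values in these tables) -/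
noncomputable def tv {S : Type} [Fintype S] (out : S → Fin m → Fin n → ℕ) (r : Fin m → ℕ)
    (c : Fin n → ℕ) : ℝ :=
  (1 / 2) * ∑ X ∈ Omega r c, |((univ.filter fun ω : S => out ω = X).card : ℝ) /
    (Fintype.card S : ℝ) - 1 / ((Omega r c).card : ℝ)|

/-- number of accuracy bits: the least `a` with `2 ^ (-a) ≤ ε` -/
noncomputable def acc (ε : ℝ) : ℕ := ⌈Real.logb 2 (1 / ε)⌉₊

/-- number of attempts -/
def attempts (m n a : ℕ) : ℕ := 2 * m * n * (a + 2)

/-- number of steps of an attempt -/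
def steps (m n D a : ℕ) : ℕ :=
  16000 * m ^ 4 * n ^ 11 * (D + 1) ^ 2 * (D + 3) * (m * n * (D + 3) + a + 3)

/-- the random choices: `attempts` times `steps` independent uniform choices of
`(k, a, b, d, coin)`, with `d ≤ log2 N` -/
abbrev Seed (n : ℕ) (r : Fin m → ℕ) (ε : ℝ) : Type :=
  Fin (attempts m n (acc ε)) → Fin (steps m n (Nat.log 2 (∑ i, r i)) (acc ε)) →
    Fin m × Fin n × Fin n × Fin (Nat.log 2 (∑ i, r i) + 1) × Bool

/-- For all `m`, `n ≥ 1`, all margins `r`, `c` with the same total `N`, and all `ε` in `(0, 1)`: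
let `h` be a row with the largest sum and `J` any column.  The explicit sampler, started at the
north-west corner table, always outputs a table with margins `r`, `c`; its law is within `ε` of
uniform in total variation; the total number of steps is at most
`384000 (L + log (1 / ε)) ^ 24`, where `L` is the input length; every step uses one uniform
choice from a set with at most `2 L ^ 4` elements; and all entries of all tables visited are at
most `N + 1`. -/
theorem result (m n : ℕ) (r : Fin m → ℕ) (c : Fin n → ℕ) (hrc : ∑ i, r i = ∑ j, c j)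
    (h : Fin m) (hmax : ∀ k, r k ≤ r h) (J : Fin n) (ε : ℝ) (h0 : 0 < ε) (h1 : ε < 1) :
    (∀ ω : Seed n r ε, sampler h J (start r c) ω ∈ Omega r c) ∧
    tv (fun ω : Seed n r ε => sampler h J (start r c) ω) r c ≤ ε ∧
    ((attempts m n (acc ε) * steps m n (Nat.log 2 (∑ i, r i)) (acc ε) : ℕ) : ℝ) ≤
      384000 * (len r c + Real.log (1 / ε)) ^ 24 ∧
    (Fintype.card (Fin m × Fin n × Fin n × Fin (Nat.log 2 (∑ i, r i) + 1) × Bool) : ℝ) ≤
      2 * len r c ^ 4 ∧
    (∀ (t : ℕ) (ω : Fin t → Fin m × Fin n × Fin n × Fin (Nat.log 2 (∑ i, r i) + 1) × Bool)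
      (i : Fin m) (j : Fin n), run h (start r c + one h J) ω i j ≤ ∑ i, r i + 1) := by
  have hm : 1 ≤ m := by have := h.2; omega
  have hn : 1 ≤ n := by have := J.2; omega
  have hX : start r c ∈ Vale.P328U.Tables r c := Vale.P328B.NW.nw_mem r c hrc
  have hND : ∑ i, r i < 2 ^ (Nat.log 2 (∑ i, r i) + 1) :=
    Nat.lt_pow_succ_log_self (by norm_num) _
  have hX' : start r c + Vale.P328U.E h J ∈ Vale.P328U.Tables (r + Pi.single h 1)
      (c + Pi.single J 1) := by
    obtain ⟨hG, -⟩ := Vale.P328U.ACC.thm m n r c h J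
    have : start r c + Vale.P328U.E h J ∈ ((Vale.P328U.Tables (r + Pi.single h 1)
        (c + Pi.single J 1)).filter fun Y => 1 ≤ Y h J) := by
      rw [hG]
      exact Finset.mem_map.mpr ⟨start r c, hX, rfl⟩
    exact (Finset.mem_filter.mp this).1
  refine ⟨?_, ?_, Vale.P328B.GLUN.total_le r c hm hn ε h0 h1, ?_, ?_⟩
  · intro ω
    refine Vale.P328U.GEN.gsam_mem r c h J
      (fun ω' : Fin (steps m n (Nat.log 2 (∑ i, r i)) (acc ε)) →
        Fin m × Fin n × Fin n × Fin (Nat.log 2 (∑ i, r i) + 1) × Bool =>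
        Vale.P328B.dyRun h (start r c + Vale.P328U.E h J) ω') (start r c) hX ?_ ω
    intro ω'
    exact (Vale.P328B.STARB.run_spec h _ ω' hX').1
  · have key := Vale.P328B.FULL.full m n (∑ i, r i) (Nat.log 2 (∑ i, r i)) r c h J ε
      (attempts m n (acc ε)) (steps m n (Nat.log 2 (∑ i, r i)) (acc ε)) (start r c) hmax rfl
      hrc.symm hX h0 h1 hND (Vale.P328B.GLUN.attempts_ge m n ε h0 h1)
      (Vale.P328B.GLUN.steps_ge m n _ _ hm hn hND ε h0 h1)
    refine le_trans (le_of_eq ?_) key
    unfold tv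
    congr 1
  · have hD := Vale.P328B.GLUN.D_le r c hn
    have hL : Vale.P328B.GLUN.len r c = len r c := rfl
    rw [hL] at hD
    have hm' : (1 : ℝ) ≤ m := by exact_mod_cast hm
    have hn' : (1 : ℝ) ≤ n := by exact_mod_cast hn
    have hD0 : (0 : ℝ) ≤ ((Nat.log 2 (∑ i, r i) : ℕ) : ℝ) := Nat.cast_nonneg _
    have hc : (Fintype.card (Fin m × Fin n × Fin n × Fin (Nat.log 2 (∑ i, r i) + 1) × Bool) : ℝ) =
        m * n * n * (((Nat.log 2 (∑ i, r i) : ℕ) : ℝ) + 1) * 2 := by
      simp only [Fintype.card_prod, Fintype.card_fin, Fintype.card_bool]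
      push_cast
      ring
    rw [hc]
    have a0 : 0 ≤ len r c := by linarith
    have a1 : (m : ℝ) ≤ len r c := by linarith
    have a2 : (n : ℝ) ≤ len r c := by linarith
    have a3 : ((Nat.log 2 (∑ i, r i) : ℕ) : ℝ) + 1 ≤ len r c := by linarith
    calc (m : ℝ) * n * n * (((Nat.log 2 (∑ i, r i) : ℕ) : ℝ) + 1) * 2
        ≤ len r c * len r c * len r c * len r c * 2 := by gcongr
      _ = 2 * len r c ^ 4 := by ring
  · intro t ω i j
    have hm1 := (Vale.P328U.STAR.mem_Tables.mp (Vale.P328B.STARB.run_spec h _ ω hX').1).1 i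
    have hm2 : run h (start r c + one h J) ω i j ≤ (r + Pi.single h 1 : Fin m → ℕ) i := by
      rw [← hm1]
      exact Finset.single_le_sum (f := fun j => Vale.P328B.dyRun h
        (start r c + Vale.P328U.E h J) ω i j) (fun _ _ => Nat.zero_le _) (Finset.mem_univ j)
    refine hm2.trans ?_
    have hm3 : r i ≤ ∑ i, r i :=
      Finset.single_le_sum (f := r) (fun _ _ => Nat.zero_le _) (Finset.mem_univ i)
    have hm4 : (Pi.single h 1 : Fin m → ℕ) i ≤ 1 := by
      by_cases hi : i = h
      · rw [hi, Pi.single_eq_same]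
      · rw [Pi.single_eq_of_ne hi]
        exact Nat.zero_le _
    simp only [Pi.add_apply]
    omega

end Vale.Agent.Results.P328.BinarySampler
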