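import Vale.Agent.P328.B.FULL
import Vale.Agent.P328.B.GLUN
import Vale.Agent.P328.Bin.NW
import Vale.Agent.P328.U.GEN
import Vale.Agent.P328.C.NUMC
import Vale.Agent.P328.C.FPR
import Vale.Agent.P328.C.IND
import Vale.Agent.P328.C.STG
import Vale.Agent.P328.C.PIG
import Vale.Agent.P328.C.COND
import Vale.Agent.P328.C.HOEF

/-!
P328: almost uniform sampling and approximate counting (FPRAS) of contingency tables with arbitrary
margins, in time polynomial in the input length (margins in binary).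
-/

namespace Vale.Agent.Results.P328.CountingAndSampling

open Finset

variable {m n : ℕ}

/-- the tables with margins `r`, `c` -/
def Omega (r : Fin m → ℕ) (c : Fin n → ℕ) : Finset (Fin m → Fin n → ℕ) :=
  (Fintype.piFinset fun i => Fintype.piFinset fun _ => range (r i + 1)).filter
    fun X => (∀ i, ∑ j, X i j = r i) ∧ ∀ j, ∑ i, X i j = c j

/-- the input length -/
noncomputable def len (r : Fin m → ℕ) (c : Fin n → ℕ) : ℝ :=
  m + n + ∑ i, Real.logb 2 (r i + 2) + ∑ j, Real.logb 2 (c j + 2)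

/-- prefix sums `a 0 + ... + a (i - 1)` -/
def pre (a : Fin m → ℕ) (i : ℕ) : ℕ := ∑ k : Fin m, if (k : ℕ) < i then a k else 0

/-- the starting table (north-west corner rule): entry `(i, j)` is the length of the intersection of
the intervals `[pre r i, pre r (i+1))` and `[pre c j, pre c (j+1))` -/
def start (r : Fin m → ℕ) (c : Fin n → ℕ) : Fin m → Fin n → ℕ :=
  fun i j => min (pre r ((i : ℕ) + 1)) (pre c ((j : ℕ) + 1)) - max (pre r i) (pre c j)

/-- the table with a single one, at `(k, j)` -/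
def one (k : Fin m) (j : Fin n) : Fin m → Fin n → ℕ := Pi.single k (Pi.single j 1)

/-- one elementary random choice: a row, two columns, an exponent `d ≤ D`, a coin -/
abbrev Choice (m n D : ℕ) : Type := Fin m × Fin n × Fin n × Fin (D + 1) × Bool

/-- one step of the dyadic switch chain with special row `h`: the choice `(k, a, b, d, coin)` moves
`2 ^ d` units of row `k` from column `a` to column `b` and `2 ^ d` units of row `h` from column `b`
to column `a`, if `coin` is true, `k ≠ h`, `a ≠ b`, `X k a ≥ 2 ^ d` and `X h b ≥ 2 ^ d`; otherwise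
nothing is moved -/
def step {D : ℕ} (h : Fin m) (X : Fin m → Fin n → ℕ) (q : Choice m n D) : Fin m → Fin n → ℕ :=
  if q.2.2.2.2 = true ∧ q.1 ≠ h ∧ q.2.1 ≠ q.2.2.1 ∧
      2 ^ (q.2.2.2.1 : ℕ) ≤ X q.1 q.2.1 ∧ 2 ^ (q.2.2.2.1 : ℕ) ≤ X h q.2.2.1 then
    X + 2 ^ (q.2.2.2.1 : ℕ) • one q.1 q.2.2.1 + 2 ^ (q.2.2.2.1 : ℕ) • one h q.2.1
      - 2 ^ (q.2.2.2.1 : ℕ) • one q.1 q.2.1 - 2 ^ (q.2.2.2.1 : ℕ) • one h q.2.2.1
  else X

/-- `t` steps, driven by the choices `ω` -/
def run {D : ℕ} (h : Fin m) (X : Fin m → Fin n → ℕ) {t : ℕ} (ω : Fin t → Choice m n D) :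
    Fin m → Fin n → ℕ :=
  (List.ofFn ω).foldl (step h) X

/-- one attempt: add one unit at `(h, J)`, run the chain, remove one unit at `(h, J)` if there is
one, otherwise fail -/
def attempt {D : ℕ} (h : Fin m) (J : Fin n) (X₀ : Fin m → Fin n → ℕ) {t : ℕ}
    (ω : Fin t → Choice m n D) : Option (Fin m → Fin n → ℕ) :=
  if 1 ≤ run h (X₀ + one h J) ω h J then some (run h (X₀ + one h J) ω - one h J) else none

/-- the sampler: the result of the first successful attempt out of `K`, and `X₀` if all fail -/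
def sampler {D : ℕ} (h : Fin m) (J : Fin n) (X₀ : Fin m → Fin n → ℕ) {K t : ℕ}
    (ω : Fin K → Fin t → Choice m n D) : Fin m → Fin n → ℕ :=
  (((List.ofFn ω).map (attempt h J X₀)).reduceOption.head?).getD X₀

/-- total variation distance between the law of `out ω`, `ω` uniform on `S`, and the uniform law
on the tables with margins `r`, `c` (for `out` with values in these tables) -/
noncomputable def tv {S : Type} [Fintype S] (out : S → Fin m → Fin n → ℕ) (r : Fin m → ℕ)
    (c : Fin n → ℕ) : ℝ :=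
  (1 / 2) * ∑ X ∈ Omega r c, |((univ.filter fun ω : S => out ω = X).card : ℝ) /
    (Fintype.card S : ℝ) - 1 / ((Omega r c).card : ℝ)|

/-- number of attempts; `a` is the number of accuracy bits -/
def attempts (m n a : ℕ) : ℕ := 2 * m * n * (a + 2)

/-- number of steps of an attempt; `D = log2 N` -/
def steps (m n D a : ℕ) : ℕ :=
  16000 * m ^ 4 * n ^ 11 * (D + 1) ^ 2 * (D + 3) * (m * n * (D + 3) + a + 3)

/-- `⌈N / (m n)⌉`: every table of total `N` has an entry which is at least this -/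
def threshold (m n N : ℕ) : ℕ := (N + m * n - 1) / (m * n)

/-- the number of tables `X s` whose entry `(i, j)` is at least `t` -/
def hits {M : ℕ} (t : ℕ) (X : Fin M → Fin m → Fin n → ℕ) (i : Fin m) (j : Fin n) : ℕ :=
  (univ.filter fun s => t ≤ X s i j).card

/-- diminish the entry `a` by `t` -/
def lower (r : Fin m → ℕ) (t : ℕ) (a : Fin m) : Fin m → ℕ := Function.update r a (r a - t)

/-- `M` samples for the margins `r`, `c` -/
def draw {D K T M : ℕ} (hub : (Fin m → ℕ) → Fin m) (J : Fin n) (r : Fin m → ℕ) (c : Fin n → ℕ)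
    (ω : Fin M → Fin K × Fin T → Choice m n D) : Fin M → Fin m → Fin n → ℕ :=
  fun s => sampler (hub r) J (start r c) (fun a b => ω s (a, b))

/-- for every cell, the number of samples (for the margins `r`, `c` of total `N`) whose entry in this
cell is at least `⌈N / (m n)⌉` -/
def freq {D K T M : ℕ} (hub : (Fin m → ℕ) → Fin m) (J : Fin n) (r : Fin m → ℕ) (c : Fin n → ℕ)
    (ω : Fin M → Fin K × Fin T → Choice m n D) : Fin m → Fin n → ℕ :=
  hits (threshold m n (∑ i, r i)) (draw hub J r c ω)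

/-- the estimate of the number of tables, with `I` stages.  A stage with margins `r`, `c` of total
`N > 0` draws `M` samples, chooses the cell `(a, b)` in which most samples have an entry
`≥ t = ⌈N / (m n)⌉`, multiplies the estimate by `M / (number of these samples)` and continues with
the margins `r - t e_a`, `c - t e_b` (tables with entry `(a, b)` at least `t` correspond to tables
with these margins). -/
noncomputable def estimate {D K T M : ℕ} (hub : (Fin m → ℕ) → Fin m)
    (pick : (Fin m → Fin n → ℕ) → Fin m × Fin n) (J : Fin n) :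
    (I : ℕ) → (Fin m → ℕ) → (Fin n → ℕ) →
      (Fin I → Fin M → Fin K × Fin T → Choice m n D) → ℝ
  | 0, _, _, _ => 1
  | I + 1, r, c, ω =>
    if ∑ i, r i = 0 then 1 else
      (M : ℝ) / (freq hub J r c (ω 0) (pick (freq hub J r c (ω 0))).1
        (pick (freq hub J r c (ω 0))).2 : ℝ) *
      estimate hub pick J I
        (lower r (threshold m n (∑ i, r i)) (pick (freq hub J r c (ω 0))).1)
        (lower c (threshold m n (∑ i, r i)) (pick (freq hub J r c (ω 0))).2)
        (fun s => ω s.succ)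

/-- `log2` of the total, rounded down -/
def lg (r : Fin m → ℕ) : ℕ := Nat.log 2 (∑ i, r i)

/-- number of stages; `D = log2 N` -/
def stages (m n D : ℕ) : ℕ := m * n * (D + 1)

/-- number of samples of one stage; `a ≥ 1 / ε`, `b ≥ log (1 / δ)` -/
def samples (m n D a b : ℕ) : ℕ :=
  16 * (m * n) ^ 2 * stages m n D ^ 2 * a ^ 2 * (2 * m * n * stages m n D + b)

/-- accuracy bits of one sample -/
def bits (m n D a : ℕ) : ℕ := 4 * m * n * stages m n D * a

/-- the random choices of the sampler, `a` accuracy bits -/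
abbrev SeedS (n : ℕ) (r : Fin m → ℕ) (a : ℕ) : Type :=
  Fin (attempts m n a) → Fin (steps m n (lg r) a) → Choice m n (lg r)

/-- the random choices of the counting algorithm; `a ≥ 1 / ε`, `b ≥ log (1 / δ)` -/
abbrev SeedC (n : ℕ) (r : Fin m → ℕ) (a b : ℕ) : Type :=
  Fin (stages m n (lg r)) → Fin (samples m n (lg r) a b) →
    Fin (attempts m n (bits m n (lg r) a)) × Fin (steps m n (lg r) (bits m n (lg r) a)) →
      Choice m n (lg r)

/-- number of elementary random choices (and steps) of the sampler -/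
def costS (n : ℕ) (r : Fin m → ℕ) (a : ℕ) : ℕ := attempts m n a * steps m n (lg r) a

/-- number of elementary random choices (and steps) of the counting algorithm -/
def costC (n : ℕ) (r : Fin m → ℕ) (a b : ℕ) : ℕ :=
  stages m n (lg r) * samples m n (lg r) a b *
    (attempts m n (bits m n (lg r) a) * steps m n (lg r) (bits m n (lg r) a))

/-- probability of `p ω` for a uniform `ω` in `S` -/
noncomputable def prob {S : Type} [Fintype S] (p : S → Prop) [DecidablePred p] : ℝ :=
  ((univ.filter p).card : ℝ) / (Fintype.card S : ℝ)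

/-- sampling: the output is always a table with margins `r`, `c`, its law is within `ε` of uniform in
total variation, and at most `384000 (L + log (1 / ε)) ^ 24` random choices are made -/
def Sampling (hub : (Fin m → ℕ) → Fin m) (J : Fin n) (r : Fin m → ℕ) (c : Fin n → ℕ) (ε : ℝ) :
    Prop :=
  (∀ ω : SeedS n r ⌈Real.logb 2 (1 / ε)⌉₊, sampler (hub r) J (start r c) ω ∈ Omega r c) ∧
    tv (fun ω : SeedS n r ⌈Real.logb 2 (1 / ε)⌉₊ => sampler (hub r) J (start r c) ω) r c ≤ ε ∧
    (costS n r ⌈Real.logb 2 (1 / ε)⌉₊ : ℝ) ≤ 384000 * (len r c + Real.log (1 / ε)) ^ 24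

/-- counting: with probability at least `1 - δ` the estimate is between `1 - ε` and `1 + ε` times
the number of tables, and at most `3 * 10 ^ 9 (L + 1 / ε + log (1 / δ)) ^ 52` random choices are
made -/
def Counting (hub : (Fin m → ℕ) → Fin m) (pick : (Fin m → Fin n → ℕ) → Fin m × Fin n) (J : Fin n)
    (r : Fin m → ℕ) (c : Fin n → ℕ) (ε δ : ℝ) : Prop :=
  1 - δ ≤ prob (fun ω : SeedC n r ⌈1 / ε⌉₊ ⌈Real.log (1 / δ)⌉₊ =>
      (1 - ε) * ((Omega r c).card : ℝ) ≤ estimate hub pick J _ r c ω ∧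
      estimate hub pick J _ r c ω ≤ (1 + ε) * ((Omega r c).card : ℝ)) ∧
    (costC n r ⌈1 / ε⌉₊ ⌈Real.log (1 / δ)⌉₊ : ℝ) ≤
      3 * 10 ^ 9 * (len r c + 1 / ε + Real.log (1 / δ)) ^ 52

theorem estimate_eq {D K T M : ℕ} (hub : (Fin m → ℕ) → Fin m)
    (pick : (Fin m → Fin n → ℕ) → Fin m × Fin n) (J : Fin n) (I : ℕ) (r : Fin m → ℕ)
    (c : Fin n → ℕ) (ω : Fin I → Fin M → Fin K × Fin T → Choice m n D) :
    estimate hub pick J I r c ω = Vale.P328C.est hub pick J I r c ω := by
  induction I generalizing r c with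
  | zero => rfl
  | succ I ih =>
    unfold estimate Vale.P328C.est
    split_ifs with h
    · rfl
    · rw [ih]
      rfl

theorem stmtIND : Vale.P328C.StmtIND :=
  Vale.P328C.IND.thm (Vale.P328C.STG.thm Vale.P328C.HOEF.thm Vale.P328C.COND.thm
    Vale.P328C.PIG.thm) Vale.P328C.PIG.thm

/-- For all `m`, `n ≥ 1`, all margins `r`, `c` with the same total, and all `ε` in `(0, 1)`; `hub`
is any rule choosing a row of largest sum and `pick` any rule choosing a cell where a table of
numbers is largest.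
Sampling: the output of the sampler is always a table with margins `r`, `c`, its law is within `ε`
of uniform, and at most `384000 (L + log (1 / ε)) ^ 24` elementary random choices and steps are
made.
Counting: for all `δ` in `(0, 1)` the estimate is within a factor `1 ± ε` of the number of tables
with probability at least `1 - δ`, and at most `3 * 10 ^ 9 (L + 1 / ε + log (1 / δ)) ^ 52`
elementary random choices and steps are made.
`L` is the input length; an elementary random choice is uniform on a set with at most `2 L ^ 4`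
elements. -/
theorem result (m n : ℕ) (r : Fin m → ℕ) (c : Fin n → ℕ) (hrc : ∑ i, r i = ∑ j, c j)
    (hub : (Fin m → ℕ) → Fin m) (hhub : ∀ (s : Fin m → ℕ) (k : Fin m), s k ≤ s (hub s))
    (pick : (Fin m → Fin n → ℕ) → Fin m × Fin n)
    (hpick : ∀ (F : Fin m → Fin n → ℕ) (i : Fin m) (j : Fin n), F i j ≤ F (pick F).1 (pick F).2)
    (J : Fin n) (ε : ℝ) (h0 : 0 < ε) (h1 : ε < 1) :
    Sampling hub J r c ε ∧ (∀ δ : ℝ, 0 < δ → δ < 1 → Counting hub pick J r c ε δ) ∧
      (Fintype.card (Choice m n (lg r)) : ℝ) ≤ 2 * len r c ^ 4 := by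
  have hm : 1 ≤ m := by have := (hub r).2; omega
  have hn : 1 ≤ n := by have := J.2; omega
  have hm' : (1 : ℝ) ≤ m := by exact_mod_cast hm
  have hn' : (1 : ℝ) ≤ n := by exact_mod_cast hn
  have hX : start r c ∈ Vale.P328U.Tables r c := Vale.P328B.NW.nw_mem r c hrc
  have hND : ∑ i, r i < 2 ^ (Nat.log 2 (∑ i, r i) + 1) :=
    Nat.lt_pow_succ_log_self (by norm_num) _
  have hX' : start r c + Vale.P328U.E (hub r) J ∈ Vale.P328U.Tables (r + Pi.single (hub r) 1)
      (c + Pi.single J 1) := by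
    obtain ⟨hG, -⟩ := Vale.P328U.ACC.thm m n r c (hub r) J
    have : start r c + Vale.P328U.E (hub r) J ∈
        ((Vale.P328U.Tables (r + Pi.single (hub r) 1)
        (c + Pi.single J 1)).filter fun Y => 1 ≤ Y (hub r) J) := by
      rw [hG]
      exact Finset.mem_map.mpr ⟨start r c, hX, rfl⟩
    exact (Finset.mem_filter.mp this).1
  refine ⟨⟨?_, ?_, Vale.P328B.GLUN.total_le r c hm hn ε h0 h1⟩, ?_, ?_⟩
  · intro ω
    refine Vale.P328U.GEN.gsam_mem r c (hub r) J
      (fun ω' : Fin (steps m n (Nat.log 2 (∑ i, r i)) ⌈Real.logb 2 (1 / ε)⌉₊) →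
        Fin m × Fin n × Fin n × Fin (Nat.log 2 (∑ i, r i) + 1) × Bool =>
        Vale.P328B.dyRun (hub r) (start r c + Vale.P328U.E (hub r) J) ω') (start r c) hX ?_ ω
    intro ω'
    exact (Vale.P328B.STARB.run_spec (hub r) _ ω' hX').1
  · have key := Vale.P328B.FULL.full m n (∑ i, r i) (Nat.log 2 (∑ i, r i)) r c (hub r) J ε
      (attempts m n ⌈Real.logb 2 (1 / ε)⌉₊)
      (steps m n (Nat.log 2 (∑ i, r i)) ⌈Real.logb 2 (1 / ε)⌉₊) (start r c) (hhub r) rfl
      hrc.symm hX h0 h1 hND (Vale.P328B.GLUN.attempts_ge m n ε h0 h1)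
      (Vale.P328B.GLUN.steps_ge m n _ _ hm hn hND ε h0 h1)
    refine le_trans (le_of_eq ?_) key
    unfold tv
    congr 1
  · intro δ d0 d1
    refine ⟨?_, Vale.P328C.NUMC.total_le r c hm hn ε δ h0 h1 d0 d1⟩
    have ha : 1 / ε ≤ (⌈1 / ε⌉₊ : ℕ) := Nat.le_ceil _
    have hb : Real.log (1 / δ) ≤ (⌈Real.log (1 / δ)⌉₊ : ℕ) := Nat.le_ceil _
    have hne : Nonempty (SeedC n r ⌈1 / ε⌉₊ ⌈Real.log (1 / δ)⌉₊) :=
      ⟨fun _ _ _ => (hub r, J, J, 0, true)⟩
    have hpos : (0 : ℝ) < (Fintype.card (SeedC n r ⌈1 / ε⌉₊ ⌈Real.log (1 / δ)⌉₊) : ℝ) := by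
      exact_mod_cast Fintype.card_pos
    have key : (1 - δ) * (Fintype.card (SeedC n r ⌈1 / ε⌉₊ ⌈Real.log (1 / δ)⌉₊) : ℝ) ≤
        ((univ.filter fun ω : SeedC n r ⌈1 / ε⌉₊ ⌈Real.log (1 / δ)⌉₊ =>
          (1 - ε) * ((Omega r c).card : ℝ) ≤ Vale.P328C.est hub pick J _ r c ω ∧
          Vale.P328C.est hub pick J _ r c ω ≤ (1 + ε) * ((Omega r c).card : ℝ)).card : ℝ) :=
      Vale.P328C.FPR.thm stmtIND m n (∑ i, r i) (lg r)
        (attempts m n (bits m n (lg r) ⌈1 / ε⌉₊))
        (steps m n (lg r) (bits m n (lg r) ⌈1 / ε⌉₊))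
        (samples m n (lg r) ⌈1 / ε⌉₊ ⌈Real.log (1 / δ)⌉₊)
        (stages m n (lg r)) hub pick J ε δ r c hm hhub hpick rfl hrc.symm h0 h1 d0 d1
        hND le_rfl (Vale.P328C.NUMC.M_ge m n _ _ _ hm hn ε δ h0 ha d0 hb)
        (Vale.P328C.NUMC.K_ge m n _ _ hm hn ε h0 ha)
        (Vale.P328C.NUMC.T_ge m n _ _ _ hm hn hND ε h0 ha)
    unfold prob
    rw [le_div_iff₀ hpos]
    simp only [estimate_eq]
    exact key
  · have hD := Vale.P328B.GLUN.D_le r c hn
    have hL : Vale.P328B.GLUN.len r c = len r c := rfl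
    rw [hL] at hD
    have hD0 : (0 : ℝ) ≤ ((Nat.log 2 (∑ i, r i) : ℕ) : ℝ) := Nat.cast_nonneg _
    have hc : (Fintype.card (Fin m × Fin n × Fin n × Fin (Nat.log 2 (∑ i, r i) + 1) × Bool) : ℝ) =
        m * n * n * (((Nat.log 2 (∑ i, r i) : ℕ) : ℝ) + 1) * 2 := by
      simp only [Fintype.card_prod, Fintype.card_fin, Fintype.card_bool]
      push_cast
      ring
    change ((Fintype.card (Fin m × Fin n × Fin n × Fin (Nat.log 2 (∑ i, r i) + 1) × Bool) : ℕ) :
      ℝ) ≤ _
    rw [hc]
    have a0 : 0 ≤ len r c := by linarith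
    have a1 : (m : ℝ) ≤ len r c := by linarith
    have a2 : (n : ℝ) ≤ len r c := by linarith
    have a3 : ((Nat.log 2 (∑ i, r i) : ℕ) : ℝ) + 1 ≤ len r c := by linarith
    calc (m : ℝ) * n * n * (((Nat.log 2 (∑ i, r i) : ℕ) : ℝ) + 1) * 2
        ≤ len r c * len r c * len r c * len r c * 2 := by gcongr
      _ = 2 * len r c ^ 4 := by ring

end Vale.Agent.Results.P328.CountingAndSampling
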