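import Vale.Agent.P328.B.PTS

/-!
P328: a randomized algorithm, given as a program with a running time, which samples contingency
tables with arbitrary margins almost uniformly, in time polynomial in the input length (margins in
binary) and in `log (1 / ε)`.
-/

namespace Vale.Agent.Results.P328.PolyTimeSampler

open Finset Vale.P328B.PT

variable {m n : ℕ}

/-- the tables with margins `r`, `c` -/
def Omega (r : Fin m → ℕ) (c : Fin n → ℕ) : Finset (Fin m → Fin n → ℕ) :=
  (Fintype.piFinset fun i => Fintype.piFinset fun _ => range (r i + 1)).filter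
    fun X => (∀ i, ∑ j, X i j = r i) ∧ ∀ j, ∑ i, X i j = c j

/-- the input length -/
noncomputable def inputLen (r : Fin m → ℕ) (c : Fin n → ℕ) : ℝ :=
  m + n + ∑ i, Real.logb 2 (r i + 2) + ∑ j, Real.logb 2 (c j + 2)

/-- the precision: `2 ^ (-prec ε) ≤ ε` -/
noncomputable def prec (ε : ℝ) : ℕ := ⌈Real.logb 2 (1 / ε)⌉₊

/-- a bit string of length `a + b` is a pair of bit strings -/
def split (a b : ℕ) : (Fin (a + b) → Bool) ≃ (Fin a → Bool) × (Fin b → Bool) :=
  (Equiv.arrowCongr finSumFinEquiv.symm (Equiv.refl Bool)).trans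
    (Equiv.sumArrowEquivProdArrow (Fin a) (Fin b) Bool)

/-- a bit string of length `w` is a number below `2 ^ w` (binary digits) -/
def num (w : ℕ) : (Fin w → Bool) ≃ Fin (2 ^ w) :=
  (Equiv.arrowCongr (Equiv.refl (Fin w)) finTwoEquiv.symm).trans finFunctionFinEquiv

/-- a string of `nbits m n D` bits is a choice of the chain -/
def draw (m n D : ℕ) (w : Fin (nbits m n D) → Bool) : Draw m n D :=
  let p := split (Nat.size m + Nat.size n + Nat.size n + Nat.size (D + 1)) 1 w
  let q := split (Nat.size m + Nat.size n + Nat.size n) (Nat.size (D + 1)) p.1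
  let s := split (Nat.size m + Nat.size n) (Nat.size n) q.1
  let t := split (Nat.size m) (Nat.size n) s.1
  (num _ t.1, num _ t.2, num _ s.2, num _ q.2, p.2 0)

/-- cut a bit string in blocks of `nbits m n D` bits, one for every step `t < T` of every attempt
`i < K` -/
def choices (K T m n D : ℕ) (ω : Fin (K * T * nbits m n D) → Bool) :
    Fin K → Fin T → Draw m n D :=
  fun i t => draw m n D fun j => ω (finProdFinEquiv (finProdFinEquiv (i, t), j))

/-- number of random bits used by the sampler -/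
def nRandom (m : ℕ) {n : ℕ} (c : Fin n → ℕ) (b : ℕ) : ℕ :=
  pK m n b * pT 512000 21 m n (pD c) b * nbits m n (pD c)

/-- the sampler, driven by random bits `ω` -/
def sampler [NeZero m] [NeZero n] (r : Fin m → ℕ) (c : Fin n → ℕ) (b : ℕ)
    (ω : Fin (nRandom m c b) → Bool) : Comp (Fin m → Fin n → ℕ) :=
  samplerC 512000 21 r c b (choices (pK m n b) (pT 512000 21 m n (pD c) b) m n (pD c) ω)

/-! ### proofs -/

theorem draw_inj (m n D : ℕ) : Function.Injective (draw m n D) := by
  intro w w' h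
  unfold draw at h
  simp only [Prod.mk.injEq] at h
  obtain ⟨h1, h2, h3, h4, h5⟩ := h
  have e1 := (num _).injective h1
  have e2 := (num _).injective h2
  have e3 := (num _).injective h3
  have e4 := (num _).injective h4
  have t : (split (Nat.size m + Nat.size n + Nat.size n + Nat.size (D + 1)) 1 w).2 =
      (split (Nat.size m + Nat.size n + Nat.size n + Nat.size (D + 1)) 1 w').2 := by
    funext i
    rw [Subsingleton.elim i 0]
    exact h5
  have s1 := (split _ _).injective (Prod.ext e1 e2)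
  have s2 := (split _ _).injective (Prod.ext s1 e3)
  have s3 := (split _ _).injective (Prod.ext s2 e4)
  exact (split _ _).injective (Prod.ext s3 t)

theorem choices_bij (K T m n D : ℕ) : Function.Bijective (choices K T m n D) := by
  rw [Fintype.bijective_iff_injective_and_card]
  constructor
  · intro ω ω' h
    funext p
    obtain ⟨⟨x, j⟩, rfl⟩ := finProdFinEquiv.surjective p
    obtain ⟨⟨i, t⟩, rfl⟩ := finProdFinEquiv.surjective x
    have h1 := congrFun (congrFun h i) t
    exact congrFun (draw_inj _ _ _ h1) j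
  · rw [Fintype.card_fun, Fintype.card_fun, Fintype.card_fun, LENP.card_draw, Fintype.card_bool,
      Fintype.card_fin, Fintype.card_fin, Fintype.card_fin, ← pow_mul, ← pow_mul]
    congr 1
    ring

theorem law_flat {K T m n D : ℕ} (f : (Fin K → Fin T → Draw m n D) → Fin m → Fin n → ℕ)
    (X : Fin m → Fin n → ℕ) :
    ((univ.filter fun ω : Fin (K * T * nbits m n D) → Bool =>
      f (choices K T m n D ω) = X).card : ℝ) / 2 ^ (K * T * nbits m n D) =
      Vale.P328U.lawOf f X := by
  have hbij := choices_bij K T m n D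
  have e1 : (Fintype.card (Fin K → Fin T → Draw m n D) : ℝ) = 2 ^ (K * T * nbits m n D) := by
    rw [← Fintype.card_of_bijective hbij, Fintype.card_fun, Fintype.card_bool, Fintype.card_fin]
    push_cast
    rfl
  unfold Vale.P328U.lawOf
  rw [e1]
  congr 1
  norm_cast
  apply Finset.card_bij (fun ω _ => choices K T m n D ω)
  · intro ω hω
    rw [mem_filter] at hω ⊢
    exact ⟨mem_univ _, hω.2⟩
  · intro ω _ ω' _ h
    exact hbij.1 h
  · intro ω' hω'
    obtain ⟨ω, rfl⟩ := hbij.2 ω'
    rw [mem_filter] at hω'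
    exact ⟨ω, mem_filter.mpr ⟨mem_univ _, hω'.2⟩, rfl⟩

attribute [local irreducible] pT pK pD

/-- **The result.** -/
theorem result (m n : ℕ) [NeZero m] [NeZero n] (r : Fin m → ℕ) (c : Fin n → ℕ)
    (hrc : ∑ i, r i = ∑ j, c j) (ε : ℝ) (h0 : 0 < ε) (h1 : ε < 1) :
    (∀ ω, (sampler r c (prec ε) ω).val ∈ Omega r c) ∧
    (1 / 2) * ∑ X ∈ Omega r c,
      |((univ.filter fun ω : Fin (nRandom m c (prec ε)) → Bool =>
          (sampler r c (prec ε) ω).val = X).card : ℝ) / 2 ^ nRandom m c (prec ε) -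
        1 / ((Omega r c).card : ℝ)| ≤ ε ∧
    (∀ ω, ((sampler r c (prec ε) ω).time : ℝ) ≤
      10 ^ 15 * (inputLen r c + Real.logb 2 (1 / ε) + 2) ^ 27) ∧
    (nRandom m c (prec ε) : ℝ) ≤ 10 ^ 13 * (inputLen r c + Real.logb 2 (1 / ε) + 2) ^ 25 ∧
    (parC 512000 21 m c (prec ε)).val =
      (pD c, pT 512000 21 m n (pD c) (prec ε), pK m n (prec ε)) := by
  have hm : 1 ≤ m := Nat.one_le_iff_ne_zero.mpr (NeZero.ne m)
  have hn : 1 ≤ n := Nat.one_le_iff_ne_zero.mpr (NeZero.ne n)
  have hlog : 0 ≤ Real.logb 2 (1 / ε) := by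
    apply Real.logb_nonneg (by norm_num)
    rw [le_div_iff₀ h0]
    linarith
  have hb : (1 / 2 : ℝ) ^ prec ε ≤ ε := by
    have h2 : Real.logb 2 (1 / ε) ≤ (prec ε : ℝ) := Nat.le_ceil _
    have h3 : 1 / ε ≤ (2 : ℝ) ^ (prec ε : ℝ) :=
      (Real.logb_le_iff_le_rpow (by norm_num) (by positivity)).mp h2
    rw [Real.rpow_natCast] at h3
    rw [one_div_pow, div_le_iff₀ (by positivity)]
    rw [div_le_iff₀ h0] at h3
    linarith
  have hb2 : (prec ε : ℝ) ≤ Real.logb 2 (1 / ε) + 1 := (Nat.ceil_lt_add_one hlog).le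
  have hL : (Lin r c : ℝ) ≤ inputLen r c := by
    unfold Lin inputLen
    push_cast
    have e1 : ∀ x : ℕ, (Nat.log 2 (x + 2) : ℝ) ≤ Real.logb 2 ((x : ℝ) + 2) := by
      intro x
      have := Real.natLog_le_logb (x + 2) 2
      push_cast at this
      exact this
    have e2 : ∑ i, (Nat.log 2 (r i + 2) : ℝ) ≤ ∑ i, Real.logb 2 ((r i : ℝ) + 2) :=
      sum_le_sum fun i _ => e1 _
    have e3 : ∑ j, (Nat.log 2 (c j + 2) : ℝ) ≤ ∑ j, Real.logb 2 ((c j : ℝ) + 2) :=
      sum_le_sum fun j _ => e1 _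
    linarith
  have hbase : ((Lin r c + prec ε + 1 : ℕ) : ℝ) ≤ inputLen r c + Real.logb 2 (1 / ε) + 2 := by
    push_cast
    linarith
  refine ⟨fun ω => Vale.P328B.PTS.sampler_mem 512000 21 r c hrc _ _, ?_, ?_, ?_, ?_⟩
  · refine le_trans (le_of_eq ?_) (Vale.P328B.PTS.sampler_tv r c hrc (prec ε) ε h0 h1 hb)
    congr 1
    refine sum_congr rfl fun X _ => ?_
    congr 2
    exact law_flat (fun ω => (samplerC 512000 21 r c (prec ε) ω).val) X
  · intro ω
    have h2 := Vale.P328B.PTS.sampler_time_poly r c hrc (prec ε)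
      (choices (pK m n (prec ε)) (pT 512000 21 m n (pD c) (prec ε)) m n (pD c) ω)
    have h3 : ((sampler r c (prec ε) ω).time : ℝ) ≤
        10 ^ 15 * ((Lin r c + prec ε + 1 : ℕ) : ℝ) ^ 27 := by
      exact_mod_cast h2
    refine h3.trans ?_
    apply mul_le_mul_of_nonneg_left _ (by positivity)
    exact pow_le_pow_left₀ (Nat.cast_nonneg _) hbase 27
  · have h2 := TIMB.bits_le_A r c (prec ε) hm hn
    have h3 : (nRandom m c (prec ε) : ℝ) ≤
        10 ^ 13 * ((Lin r c + prec ε + 1 : ℕ) : ℝ) ^ 25 := by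
      unfold nRandom
      exact_mod_cast h2
    refine h3.trans ?_
    apply mul_le_mul_of_nonneg_left _ (by positivity)
    exact pow_le_pow_left₀ (Nat.cast_nonneg _) hbase 25
  · exact PART.parC_val 512000 21 m c (prec ε)

end Vale.Agent.Results.P328.PolyTimeSampler
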