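import Vale.Agent.P328.U.ASM

/-!
P328: an almost uniform sampler for contingency tables with arbitrary margins, polynomial in the
dimensions, the total sum and the logarithm of the accuracy.
-/

namespace Vale.Agent.Results.P328.UnarySampler

open Finset

variable {m n : ℕ}

/-- the tables with margins `r`, `c` -/
def Omega (r : Fin m → ℕ) (c : Fin n → ℕ) : Finset (Fin m → Fin n → ℕ) :=
  (Fintype.piFinset fun i => Fintype.piFinset fun _ => range (r i + 1)).filter
    fun X => (∀ i, ∑ j, X i j = r i) ∧ ∀ j, ∑ i, X i j = c j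

/-- the table with a single one, at `(k, j)` -/
def one (k : Fin m) (j : Fin n) : Fin m → Fin n → ℕ := Pi.single k (Pi.single j 1)

/-- one step of the chain with special row `h`; the choice `(k, l, j, u)` moves one unit of the row
`k` from column `l` to column `j` and one unit of the row `h` from column `j` to column `l`,
provided `k ≠ h`, `l ≠ j`, `u < X k l * (X k j + 1)` and `X h j ≥ 1` -/
def step (h : Fin m) (M : ℕ) (X : Fin m → Fin n → ℕ)
    (q : Fin m × Fin n × Fin n × Fin M) : Fin m → Fin n → ℕ :=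
  if q.1 ≠ h ∧ q.2.1 ≠ q.2.2.1 ∧ (q.2.2.2 : ℕ) < X q.1 q.2.1 * (X q.1 q.2.2.1 + 1) ∧
      1 ≤ X h q.2.2.1 then
    X + one q.1 q.2.2.1 + one h q.2.1 - one q.1 q.2.1 - one h q.2.2.1
  else X

/-- `t` steps, driven by the choices `ω` -/
def run (h : Fin m) (M : ℕ) (X : Fin m → Fin n → ℕ) {t : ℕ}
    (ω : Fin t → Fin m × Fin n × Fin n × Fin M) : Fin m → Fin n → ℕ :=
  (List.ofFn ω).foldl (step h M) X

/-- one attempt: add one unit at `(h, J)`, run the chain, remove one unit at `(h, J)` if there is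
one, otherwise fail -/
def attempt (h : Fin m) (J : Fin n) (M : ℕ) (X₀ : Fin m → Fin n → ℕ) {t : ℕ}
    (ω : Fin t → Fin m × Fin n × Fin n × Fin M) : Option (Fin m → Fin n → ℕ) :=
  if 1 ≤ run h M (X₀ + one h J) ω h J then some (run h M (X₀ + one h J) ω - one h J) else none

/-- the sampler: the result of the first successful attempt out of `K`, and `X₀` if all fail -/
def sampler (h : Fin m) (J : Fin n) (M : ℕ) (X₀ : Fin m → Fin n → ℕ) {K t : ℕ}
    (ω : Fin K → Fin t → Fin m × Fin n × Fin n × Fin M) : Fin m → Fin n → ℕ :=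
  (((List.ofFn ω).map (attempt h J M X₀)).reduceOption.head?).getD X₀

/-- total variation distance between the law of `out ω`, `ω` uniform on `S`, and the uniform law
on the tables with margins `r`, `c` (for `out` with values in these tables) -/
noncomputable def tv {S : Type} [Fintype S] (out : S → Fin m → Fin n → ℕ) (r : Fin m → ℕ)
    (c : Fin n → ℕ) : ℝ :=
  (1 / 2) * ∑ X ∈ Omega r c, |((univ.filter fun ω : S => out ω = X).card : ℝ) /
    (Fintype.card S : ℝ) - 1 / ((Omega r c).card : ℝ)|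

/-- For all `m`, `n` and all margins `r`, `c` of total `N`: let `h` be a row with the largest sum,
`J` any column and `X₀` any table.  With `K ≥ 2 m n log (4 / ε)` attempts of
`T ≥ 12 m n^6 (N+2)^6 (m n log (N+2) + log (8 m n / ε))` steps each, the output of the sampler is a
table with margins `r`, `c`, and its law is within `ε` of uniform. -/
theorem result (m n N : ℕ) (r : Fin m → ℕ) (c : Fin n → ℕ) (h : Fin m) (J : Fin n) (ε : ℝ)
    (K T : ℕ) (X₀ : Fin m → Fin n → ℕ) (hmax : ∀ k, r k ≤ r h)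
    (hr : ∑ i, r i = N) (hc : ∑ j, c j = N) (hX₀ : X₀ ∈ Omega r c) (hε : 0 < ε) (hε1 : ε < 1)
    (hK : 2 * m * n * Real.log (4 / ε) ≤ K)
    (hT : 12 * m * (n : ℝ) ^ 6 * ((N : ℝ) + 2) ^ 6 *
      (m * n * Real.log (N + 2) + Real.log (8 * m * n / ε)) ≤ T) :
    (∀ ω : Fin K → Fin T → Fin m × Fin n × Fin n × Fin ((r h + 1) ^ 2),
      sampler h J ((r h + 1) ^ 2) X₀ ω ∈ Omega r c) ∧
    tv (fun ω : Fin K → Fin T → Fin m × Fin n × Fin n × Fin ((r h + 1) ^ 2) =>
      sampler h J ((r h + 1) ^ 2) X₀ ω) r c ≤ ε := by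
  constructor
  · intro ω
    refine Vale.P328U.GEN.gsam_mem r c h J
      (fun ω : Fin T → Fin m × Fin n × Fin n × Fin ((r h + 1) ^ 2) =>
        Vale.P328U.starRun h ((r h + 1) ^ 2) (X₀ + Vale.P328U.E h J) ω) X₀ hX₀ ?_ ω
    intro ω'
    refine (Vale.P328U.STAR.run_spec h ((r h + 1) ^ 2) ω' ?_).1
    obtain ⟨hG, -⟩ := Vale.P328U.ACC.thm m n r c h J
    have : X₀ + Vale.P328U.E h J ∈ ((Vale.P328U.Tables (r + Pi.single h 1)
        (c + Pi.single J 1)).filter fun Y => 1 ≤ Y h J) := by
      rw [hG]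
      exact Finset.mem_map.mpr ⟨X₀, hX₀, rfl⟩
    exact (Finset.mem_filter.mp this).1
  · have key := Vale.P328U.ASM.fin m n N r c h J ε K T X₀ hmax hr hc hX₀ hε hε1 hK
      (by
        refine le_trans (le_of_eq ?_) hT
        ring)
    refine le_trans (le_of_eq ?_) key
    unfold tv
    congr 1

end Vale.Agent.Results.P328.UnarySampler
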